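import Vale.Agent.P195.Rigid

/-!
# P195: polynomial functions of bounded degree
-/

namespace P195

section deg

variable {k : Type*} [Field k] {V : Type*} [AddCommGroup V] [Module k V] {s : ℕ}
  (B : Module.Basis (Fin s) k V)

/-- `F` is given by a polynomial of total degree at most `m` in the coordinates -/
def IsPol (m : ℕ) (F : V → k) : Prop :=
  ∃ p : MvPolynomial (Fin s) k, p.totalDegree ≤ m ∧ ∀ v, F v = MvPolynomial.eval (B.repr v) p

variable {B}

lemma IsPol.mono {m m' : ℕ} {F : V → k} (h : IsPol B m F) (hm : m ≤ m') : IsPol B m' F := by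
  obtain ⟨p, hp, hF⟩ := h
  exact ⟨p, hp.trans hm, hF⟩

lemma IsPol.add {m : ℕ} {F G : V → k} (hF : IsPol B m F) (hG : IsPol B m G) :
    IsPol B m (fun v => F v + G v) := by
  obtain ⟨p, hp, hF⟩ := hF
  obtain ⟨q, hq, hG⟩ := hG
  exact ⟨p + q, (MvPolynomial.totalDegree_add p q).trans (max_le hp hq), fun v => by
    simp only [map_add, hF, hG]⟩

lemma IsPol.sub {m : ℕ} {F G : V → k} (hF : IsPol B m F) (hG : IsPol B m G) :
    IsPol B m (fun v => F v - G v) := by
  obtain ⟨p, hp, hF⟩ := hF
  obtain ⟨q, hq, hG⟩ := hG
  exact ⟨p - q, (MvPolynomial.totalDegree_sub p q).trans (max_le hp hq), fun v => by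
    simp only [map_sub, hF, hG]⟩

lemma IsPol.mul {m m' : ℕ} {F G : V → k} (hF : IsPol B m F) (hG : IsPol B m' G) :
    IsPol B (m + m') (fun v => F v * G v) := by
  obtain ⟨p, hp, hF⟩ := hF
  obtain ⟨q, hq, hG⟩ := hG
  exact ⟨p * q, (MvPolynomial.totalDegree_mul p q).trans (Nat.add_le_add hp hq), fun v => by
    simp only [map_mul, hF, hG]⟩

lemma isPol_const (c : k) : IsPol B 0 (fun _ => c) :=
  ⟨MvPolynomial.C c, (MvPolynomial.totalDegree_C c).le, fun v => by rw [MvPolynomial.eval_C]⟩

lemma isPol_coord (i : Fin s) : IsPol B 1 (fun v => B.repr v i) :=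
  ⟨MvPolynomial.X i, (MvPolynomial.totalDegree_X i).le, fun v => by rw [MvPolynomial.eval_X]⟩

lemma isPol_sum {J : Type*} (T : Finset J) {m : ℕ} {F : J → V → k}
    (h : ∀ j ∈ T, IsPol B m (F j)) : IsPol B m (fun v => ∑ j ∈ T, F j v) := by
  classical
  induction T using Finset.induction_on with
  | empty =>
    refine ((isPol_const (B := B) 0).mono (Nat.zero_le m)).mono le_rfl
  | insert a T ha ih =>
    have h1 := (h a (Finset.mem_insert_self a T)).add
      (ih fun j hj => h j (Finset.mem_insert_of_mem hj))
    have h2 : (fun v => ∑ j ∈ insert a T, F j v) = fun v => F a v + ∑ j ∈ T, F j v := by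
      funext v
      rw [Finset.sum_insert ha]
    rw [h2]
    exact h1

lemma isPol_lin (l : V →ₗ[k] k) : IsPol B 1 (fun v => l v) := by
  have h1 : (fun v => l v) = fun v => ∑ i, B.repr v i * l (B i) := by
    funext v
    conv_lhs => rw [← B.sum_repr v]
    rw [map_sum]
    refine Finset.sum_congr rfl fun i _ => ?_
    rw [map_smul, smul_eq_mul]
  rw [h1]
  refine isPol_sum _ fun i _ => ?_
  exact (isPol_coord i).mul (isPol_const _)

variable {m : Type*} [Fintype m] [DecidableEq m]

lemma isPol_det {t : ℕ} {M : V → Matrix m m k} (h : ∀ i j, IsPol B t (fun v => M v i j)) :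
    IsPol B (Fintype.card m * t) (fun v => (M v).det) := by
  choose p hp hM using h
  let Q : Matrix m m (MvPolynomial (Fin s) k) := fun i j => p i j
  refine ⟨Q.det, ?_, fun v => ?_⟩
  · rw [Matrix.det_apply]
    refine (MvPolynomial.totalDegree_finsetSum _ _).trans (Finset.sup_le fun σ _ => ?_)
    have h1 : (∏ i, Q (σ i) i).totalDegree ≤ Fintype.card m * t := by
      refine (MvPolynomial.totalDegree_finsetProd _ _).trans ?_
      refine (Finset.sum_le_sum fun i _ => hp (σ i) i).trans ?_
      rw [Finset.sum_const, Finset.card_univ, smul_eq_mul]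
    rcases Int.units_eq_one_or (Equiv.Perm.sign σ) with h2 | h2
    · rw [h2, one_smul]
      exact h1
    · rw [h2, Units.neg_smul, one_smul, MvPolynomial.totalDegree_neg]
      exact h1
  · rw [RingHom.map_det]
    have h3 : M v = (MvPolynomial.eval (B.repr v)).mapMatrix Q := by
      ext i j
      exact hM i j v
    exact congrArg Matrix.det h3

lemma isPol_adj {t : ℕ} {M : V → Matrix m m k} (h : ∀ i j, IsPol B t (fun v => M v i j))
    (i j : m) : IsPol B (Fintype.card m * t) (fun v => (M v).adjugate i j) := by
  have h1 : (fun v => (M v).adjugate i j) = fun v => ((M v).updateRow j (Pi.single i 1)).det := by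
    funext v
    rw [Matrix.adjugate_apply]
  rw [h1]
  refine isPol_det fun a b => ?_
  by_cases hab : a = j
  · have h2 : (fun v => (M v).updateRow j (Pi.single i 1) a b) = fun _ => (Pi.single i 1 : m → k) b := by
      funext v
      rw [Matrix.updateRow_apply, if_pos hab]
    rw [h2]
    exact (isPol_const _).mono (Nat.zero_le t)
  · have h2 : (fun v => (M v).updateRow j (Pi.single i 1) a b) = fun v => M v a b := by
      funext v
      rw [Matrix.updateRow_apply, if_neg hab]
    rw [h2]
    exact h a b

/-- polynomial functions of bounded degree which separate points diagonally are few -/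
lemma isPol_count {J : Type*} [Fintype J] {t : ℕ} (x : J → V) (F : J → V → k)
    (hF : ∀ j, IsPol B t (F j)) (h0 : ∀ j, F j (x j) ≠ 0) (h1 : ∀ i j, i ≠ j → F i (x j) = 0) :
    Fintype.card J ≤ (t + 1) ^ s := by
  classical
  choose p hp hFp using hF
  let L : (J → k) →ₗ[k] MvPolynomial (Fin s) k :=
    { toFun := fun c => ∑ j, c j • p j
      map_add' := fun c c' => by
        simp only [Pi.add_apply, add_smul, Finset.sum_add_distrib]
      map_smul' := fun r c => by
        simp only [Pi.smul_apply, smul_eq_mul, mul_smul, Finset.smul_sum, RingHom.id_apply] }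
  let ex : (Fin s → Fin (t + 1)) → (Fin s →₀ ℕ) := fun e =>
    Finsupp.equivFunOnFinite.symm fun i => (e i : ℕ)
  let K : (J → k) →ₗ[k] ((Fin s → Fin (t + 1)) → k) :=
    { toFun := fun c e => (L c).coeff (ex e)
      map_add' := fun c c' => by
        funext e
        rw [map_add, MvPolynomial.coeff_add, Pi.add_apply]
      map_smul' := fun r c => by
        funext e
        rw [map_smul, MvPolynomial.coeff_smul, Pi.smul_apply, RingHom.id_apply] }
  have hLd : ∀ c, (L c).totalDegree ≤ t := by
    intro c
    refine (MvPolynomial.totalDegree_finsetSum _ _).trans (Finset.sup_le fun j _ => ?_)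
    exact (MvPolynomial.totalDegree_smul_le _ _).trans (hp j)
  have hK : Function.Injective K := by
    rw [← LinearMap.ker_eq_bot, LinearMap.ker_eq_bot']
    intro c hc
    have hLc : L c = 0 := by
      by_contra hne
      obtain ⟨e, he⟩ := MvPolynomial.ne_zero_iff.1 hne
      have he2 : e ∈ (L c).support := MvPolynomial.mem_support_iff.2 he
      have he3 : ∀ i, e i < t + 1 := by
        intro i
        have h3 := MvPolynomial.le_totalDegree he2
        have h4 : e i ≤ e.sum fun _ n => n := by
          by_cases hi : i ∈ e.support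
          · exact Finset.single_le_sum (f := fun i => e i) (fun _ _ => Nat.zero_le _) hi
          · rw [Finsupp.notMem_support_iff.1 hi]
            exact Nat.zero_le _
        have h5 := hLd c
        omega
      have h6 : K c (fun i => ⟨e i, he3 i⟩) = 0 := by
        rw [hc]
        rfl
      apply he
      have h7 : ex (fun i => ⟨e i, he3 i⟩) = e := by
        ext i
        rfl
      rw [← h7]
      exact h6
    funext j
    have h8 : MvPolynomial.eval (B.repr (x j)) (L c) = c j * F j (x j) := by
      show MvPolynomial.eval (B.repr (x j)) (∑ i, c i • p i) = _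
      rw [map_sum, Finset.sum_eq_single j]
      · rw [MvPolynomial.smul_eval, hFp]
      · intro i _ hij
        rw [MvPolynomial.smul_eval, ← hFp, h1 i j hij, mul_zero]
      · intro h
        exact absurd (Finset.mem_univ j) h
    rw [hLc, map_zero] at h8
    exact (mul_eq_zero.1 h8.symm).resolve_right (h0 j)
  have h2 := LinearMap.finrank_le_finrank_of_injective hK
  rw [Module.finrank_fintype_fun_eq_card, Module.finrank_fintype_fun_eq_card,
    Fintype.card_fun, Fintype.card_fin, Fintype.card_fin] at h2
  exact h2

end deg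

end P195
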