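import Vale.Agent.P195.Syz

/-!
# P195: the dimensions of the syzygies
-/

namespace P195

open CategoryTheory Abelian Filter

universe u

section iso

variable {k R : Type u} [Field k] [Ring R] [Algebra k R] {ι : Type} [Fintype ι]
  (b : Module.Basis ι k R)
variable {N N' : Type u} [AddCommGroup N] [Module R N] [Module k N] [IsScalarTower k R N]
  [AddCommGroup N'] [Module R N'] [Module k N'] [IsScalarTower k R N']
  {d : ℕ} (e : Module.Basis (Fin d) k N) (e' : Module.Basis (Fin d) k N')

/-- an invertible matrix which intertwines two representations is an isomorphism of modules -/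
lemma iso_of_matrix (φ : Matrix (Fin d) (Fin d) k) (hφ : φ.det ≠ 0)
    (h : ∀ j, rho b e' j * φ = φ * rho b e j) : Nonempty (N ≃ₗ[R] N') := by
  let F : N →ₗ[k] N' := Matrix.toLin e e' φ
  have hF : LinearMap.toMatrix e e' F = φ := LinearMap.toMatrix_toLin e e' φ
  have hcomm : ∀ j, act k N' (b j) ∘ₗ F = F ∘ₗ act k N (b j) := by
    intro j
    apply (LinearMap.toMatrix e e').injective
    rw [LinearMap.toMatrix_comp e e' e', LinearMap.toMatrix_comp e e e', hF]
    exact h j
  have hR : ∀ (r : R) (x : N), F (r • x) = r • F x := by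
    intro r x
    have h1 : F ((∑ j, b.repr r j • b j) • x) = (∑ j, b.repr r j • b j) • F x := by
      rw [Finset.sum_smul, Finset.sum_smul, map_sum]
      refine Finset.sum_congr rfl fun j _ => ?_
      rw [smul_assoc, smul_assoc, map_smul]
      congr 1
      exact (LinearMap.congr_fun (hcomm j) x).symm
    rw [b.sum_repr] at h1
    exact h1
  let G : N' →ₗ[k] N := Matrix.toLin e' e φ⁻¹
  have hu : IsUnit φ.det := isUnit_iff_ne_zero.2 hφ
  have hGF : G ∘ₗ F = LinearMap.id := by
    rw [← Matrix.toLin_mul e e' e, Matrix.nonsing_inv_mul φ hu, Matrix.toLin_one]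
  have hFG : F ∘ₗ G = LinearMap.id := by
    rw [← Matrix.toLin_mul e' e e', Matrix.mul_nonsing_inv φ hu, Matrix.toLin_one]
  exact ⟨{ toFun := F
           map_add' := map_add F
           map_smul' := hR
           invFun := G
           left_inv := fun x => LinearMap.congr_fun hGF x
           right_inv := fun x => LinearMap.congr_fun hFG x }⟩

end iso

section main

variable {k R : Type u} [Field k] [Ring R] [Algebra k R] [Module.Finite k R]

/-- among infinitely many modules of the same dimension without self-extensions of degree one,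
two are isomorphic -/
lemma exists_iso (d : ℕ) (M : ℕ → Type u) [∀ n, AddCommGroup (M n)] [∀ n, Module R (M n)]
    [∀ n, Module k (M n)] [∀ n, IsScalarTower k R (M n)] [∀ n, Module.Finite k (M n)]
    (hd : ∀ n, Module.finrank k (M n) = d)
    (hE : ∀ n, Subsingleton (Ext.{u} (ModuleCat.of R (M n)) (ModuleCat.of R (M n)) 1)) :
    ∃ n i, i < n ∧ Nonempty (M i ≃ₗ[R] M n) := by
  let b := Module.finBasis k R
  let e : ∀ n, Module.Basis (Fin d) k (M n) := fun n => Module.finBasisOfFinrankEq k (M n) (hd n)
  obtain ⟨n, i, hi, φ, hφ, h⟩ := rigid_pigeon (sc b) (fun n => rho b (e n))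
    fun n => rigid b (e n) (hE n)
  exact ⟨n, i, hi, iso_of_matrix b (e i) (e n) φ hφ h⟩

variable {N P : ℕ → Type u} [∀ n, AddCommGroup (N n)] [∀ n, Module R (N n)]
  [∀ n, Module k (N n)] [∀ n, IsScalarTower k R (N n)]
  [∀ n, AddCommGroup (P n)] [∀ n, Module R (P n)] [∀ n, Module.Projective R (P n)]
  [∀ n, Module.Finite R (P n)]
  (f : ∀ n, N (n + 1) →ₗ[R] P n) (g : ∀ n, P n →ₗ[R] N n)
  (hf : ∀ n, Function.Injective (f n)) (hg : ∀ n, Function.Surjective (g n))
  (hex : ∀ n, Function.Exact (f n) (g n))

include hf hg hex in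
/-- the dimensions of the syzygies of a non-projective module with (AR) tend to infinity -/
theorem grow
    (h1 : ∀ i : ℕ, 1 ≤ i → Subsingleton (Ext.{u} (ModuleCat.of R (N 0)) (ModuleCat.of R (N 0)) i))
    (h2 : ∀ i : ℕ, 1 ≤ i → Subsingleton (Ext.{u} (ModuleCat.of R (N 0)) (ModuleCat.of R R) i))
    (hnp : ¬ Module.Projective R (N 0)) :
    Tendsto (fun n => Module.finrank k (N n)) atTop atTop := by
  have hfin : ∀ n, Module.Finite R (N n) := fun n => Module.Finite.of_surjective (g n) (hg n)
  have hall := ar_all f g hf hg hex h1 h2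
  have hkfin : ∀ n, Module.Finite k (N n) := fun n => Module.Finite.trans R (N n)
  rw [tendsto_atTop]
  intro D
  by_contra hcon
  rw [not_eventually] at hcon
  have hcon2 : ∃ d < D, ∃ᶠ n in atTop, Module.finrank k (N n) = d := by
    by_contra hno
    push Not at hno
    have h3 : ∀ᶠ n in atTop, ∀ d ∈ Finset.range D, Module.finrank k (N n) ≠ d := by
      rw [Finset.eventually_all]
      intro d hd
      exact hno d (Finset.mem_range.1 hd)
    obtain ⟨n, hn1, hn2⟩ := (hcon.and_eventually h3).exists
    exact hn2 _ (Finset.mem_range.2 (not_le.1 hn1)) rfl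
  obtain ⟨d, -, hd⟩ := hcon2
  obtain ⟨ν, hν, hνd⟩ := extraction_of_frequently_atTop hd
  obtain ⟨n, i, hi, ⟨e⟩⟩ := exists_iso (k := k) (R := R) d (fun j => N (ν j)) hνd
    fun j => (hall (ν j)).1 1 le_rfl
  exact hnp (proj_of_iso f g hf hg hex h1 h2 hfin (hν hi) e)

end main

end P195
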