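import Vale.Agent.P195.Open
import Vale.Agent.P195.Grow

/-!
# P195: counting the syzygies of a given dimension
-/

namespace P195

open CategoryTheory Abelian Filter

universe u

section general

variable {R : Type u} [Ring R] {N P : ℕ → Type u} [∀ n, AddCommGroup (N n)] [∀ n, Module R (N n)]
  [∀ n, AddCommGroup (P n)] [∀ n, Module R (P n)] [∀ n, Module.Projective R (P n)]
  [∀ n, Module.Finite R (P n)]
  (f : ∀ n, N (n + 1) →ₗ[R] P n) (g : ∀ n, P n →ₗ[R] N n)
  (hf : ∀ n, Function.Injective (f n)) (hg : ∀ n, Function.Surjective (g n))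
  (hex : ∀ n, Function.Exact (f n) (g n))

omit [∀ n, Module.Finite R (P n)] in
include hf hg hex in
lemma r_all
    (h2 : ∀ i : ℕ, 1 ≤ i → Subsingleton (Ext.{u} (ModuleCat.of R (N 0)) (ModuleCat.of R R) i)) :
    ∀ n i : ℕ, 1 ≤ i → Subsingleton (Ext.{u} (ModuleCat.of R (N n)) (ModuleCat.of R R) i) := by
  intro n
  induction n with
  | zero => exact h2
  | succ n ih =>
    intro i hi
    exact shift_iter f g hf hg hex _ 1 n i hi (ih (1 + i) (by omega))

include hf hg hex in
lemma self_all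
    (h2 : ∀ i : ℕ, 1 ≤ i → Subsingleton (Ext.{u} (ModuleCat.of R (N 0)) (ModuleCat.of R R) i))
    {i : ℕ} (hi : 1 ≤ i)
    (h1 : Subsingleton (Ext.{u} (ModuleCat.of R (N 0)) (ModuleCat.of R (N 0)) i)) (n : ℕ) :
    Subsingleton (Ext.{u} (ModuleCat.of R (N n)) (ModuleCat.of R (N n)) i) := by
  induction n with
  | zero => exact h1
  | succ n ih =>
    have h3 : Subsingleton (Ext.{u} (ModuleCat.of R (N n)) (ModuleCat.of R (P n)) (i + 1)) :=
      extZero_proj (r_all f g hf hg hex h2 n (i + 1) (by omega))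
    have h4 : Subsingleton (Ext.{u} (ModuleCat.of R (N n)) (ModuleCat.of R (N (n + 1)))
        (i + 1)) := shift_right (seq_exact (f n) (g n) (hf _) (hg _) (hex _)) _ h3 ih
    rw [add_comm i 1] at h4
    exact shift_iter f g hf hg hex _ 1 n i hi h4

/-- isomorphic modules have the same vanishing of extension groups: second variable -/
lemma ext_iso_right {A B : Type u} [AddCommGroup A] [Module R A] [AddCommGroup B] [Module R B]
    (e : A ≃ₗ[R] B) (X : ModuleCat.{u} R) {i : ℕ}
    (h : Subsingleton (Ext.{u} X (ModuleCat.of R A) i)) :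
    Subsingleton (Ext.{u} X (ModuleCat.of R B) i) := by
  refine subsingleton_of_forall_eq 0 fun x => ?_
  let i1 : ModuleCat.of R B ⟶ ModuleCat.of R A := ModuleCat.ofHom e.symm.toLinearMap
  let i2 : ModuleCat.of R A ⟶ ModuleCat.of R B := ModuleCat.ofHom e.toLinearMap
  have hid : 𝟙 (ModuleCat.of R B) = i1 ≫ i2 := by
    ext x
    exact (e.apply_symm_apply x).symm
  rw [← Ext.comp_mk₀_id x, hid, ← Ext.mk₀_comp_mk₀, ← Ext.comp_assoc_of_second_deg_zero,
    Subsingleton.elim (x.comp (Ext.mk₀ i1) (add_zero i)) 0, Ext.zero_comp]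

/-- isomorphic modules have the same vanishing of extension groups: first variable -/
lemma ext_iso_left {A B : Type u} [AddCommGroup A] [Module R A] [AddCommGroup B] [Module R B]
    (e : A ≃ₗ[R] B) (X : ModuleCat.{u} R) {i : ℕ}
    (h : Subsingleton (Ext.{u} (ModuleCat.of R A) X i)) :
    Subsingleton (Ext.{u} (ModuleCat.of R B) X i) := by
  refine subsingleton_of_forall_eq 0 fun x => ?_
  let i1 : ModuleCat.of R B ⟶ ModuleCat.of R A := ModuleCat.ofHom e.symm.toLinearMap
  let i2 : ModuleCat.of R A ⟶ ModuleCat.of R B := ModuleCat.ofHom e.toLinearMap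
  have hid : 𝟙 (ModuleCat.of R B) = i1 ≫ i2 := by
    ext x
    exact (e.apply_symm_apply x).symm
  rw [← Ext.mk₀_id_comp x, hid, ← Ext.mk₀_comp_mk₀_assoc,
    Subsingleton.elim ((Ext.mk₀ i2).comp x (zero_add i)) 0, Ext.comp_zero]

include hf hg hex in
/-- two isomorphic syzygies force projectivity -/
lemma proj_of_iso'
    (h2 : ∀ i : ℕ, 1 ≤ i → Subsingleton (Ext.{u} (ModuleCat.of R (N 0)) (ModuleCat.of R R) i))
    (h3 : ∀ m : ℕ, 1 ≤ m → ∃ j : ℕ, 1 ≤ j ∧
      Subsingleton (Ext.{u} (ModuleCat.of R (N 0)) (ModuleCat.of R (N 0)) (j * m)))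
    {a c : ℕ} (hac : a < c) (e : N a ≃ₗ[R] N c) : Module.Projective R (N 0) := by
  have hfin : ∀ n, Module.Finite R (N n) := fun n => Module.Finite.of_surjective (g n) (hg n)
  obtain ⟨m, rfl⟩ : ∃ m, c = a + m + 1 := ⟨c - a - 1, by omega⟩
  obtain ⟨j, hj, h4⟩ := h3 (m + 1) (by omega)
  have h5 : ∀ j : ℕ, 1 ≤ j →
      Subsingleton (Ext.{u} (ModuleCat.of R (N a)) (ModuleCat.of R (N a)) (j * (m + 1))) →
      Subsingleton (Ext.{u} (ModuleCat.of R (N a)) (ModuleCat.of R (N a)) (m + 1)) := by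
    intro j hj
    induction j, hj using Nat.le_induction with
    | base =>
      intro h
      rw [one_mul] at h
      exact h
    | succ j hj ih =>
      intro h
      refine ih ?_
      have h6 : (j + 1) * (m + 1) = (m + 1) + j * (m + 1) := by ring
      rw [h6] at h
      exact ext_iso_left e.symm _ (shift_iter f g hf hg hex _ (m + 1) a (j * (m + 1))
        (Nat.mul_pos hj (Nat.succ_pos m)) h)
  have h6 := h5 j hj (self_all f g hf hg hex h2 (Nat.mul_pos hj (Nat.succ_pos m)) h4 a)
  have h7 := ext_iso_right e _ h6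
  have h8 := shift_iter f g hf hg hex (ModuleCat.of R (N (a + m + 1))) m a 1 le_rfl h7
  have h9 : Module.Projective R (N (a + m)) :=
    projective_of_ext (f (a + m)) (g (a + m)) (hf _) (hg _) (hex _) h8
  exact descend f g hf hg hex (r_all f g hf hg hex h2) (a + m) hfin h9

end general

section main

variable {k R : Type u} [Field k] [Ring R] [Algebra k R] [Module.Finite k R]

/-- there are few pairwise non-isomorphic modules of a given dimension without self-extensions of
degree one -/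
lemma mod_count (d : ℕ) {J : Type} [Fintype J] (M : J → Type u) [∀ n, AddCommGroup (M n)]
    [∀ n, Module R (M n)] [∀ n, Module k (M n)] [∀ n, IsScalarTower k R (M n)]
    [∀ n, Module.Finite k (M n)] (hd : ∀ n, Module.finrank k (M n) = d)
    (hE : ∀ n, Subsingleton (Ext.{u} (ModuleCat.of R (M n)) (ModuleCat.of R (M n)) 1))
    (hne : ∀ i j, i ≠ j → ¬ Nonempty (M i ≃ₗ[R] M j)) :
    Fintype.card J ≤ ((d + 1) * (Module.finrank k R * d ^ 2 + 1)) ^
      (Module.finrank k R * d ^ 2) := by
  let b := Module.finBasis k R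
  let e : ∀ n, Module.Basis (Fin d) k (M n) := fun n => Module.finBasisOfFinrankEq k (M n) (hd n)
  have h := rigid_count (sc b) (fun n => rho b (e n)) (fun n => rigid b (e n) (hE n))
    (fun i j hij ⟨φ, hφ, h⟩ => hne i j hij (iso_of_matrix b (e i) (e j) φ hφ h))
  rwa [Fintype.card_fin] at h

variable {N P : ℕ → Type u} [∀ n, AddCommGroup (N n)] [∀ n, Module R (N n)]
  [∀ n, Module k (N n)] [∀ n, IsScalarTower k R (N n)]
  [∀ n, AddCommGroup (P n)] [∀ n, Module R (P n)] [∀ n, Module.Projective R (P n)]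
  [∀ n, Module.Finite R (P n)]
  (f : ∀ n, N (n + 1) →ₗ[R] P n) (g : ∀ n, P n →ₗ[R] N n)
  (hf : ∀ n, Function.Injective (f n)) (hg : ∀ n, Function.Surjective (g n))
  (hex : ∀ n, Function.Exact (f n) (g n))

include hf hg hex in
/-- a non-projective module has few syzygies of dimension at most `D` -/
theorem eff
    (h1 : Subsingleton (Ext.{u} (ModuleCat.of R (N 0)) (ModuleCat.of R (N 0)) 1))
    (h2 : ∀ i : ℕ, 1 ≤ i → Subsingleton (Ext.{u} (ModuleCat.of R (N 0)) (ModuleCat.of R R) i))
    (h3 : ∀ m : ℕ, 1 ≤ m → ∃ j : ℕ, 1 ≤ j ∧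
      Subsingleton (Ext.{u} (ModuleCat.of R (N 0)) (ModuleCat.of R (N 0)) (j * m)))
    (hnp : ¬ Module.Projective R (N 0)) (D : ℕ) :
    {n | Module.finrank k (N n) ≤ D}.encard ≤
      ((D * ((D + 1) * (Module.finrank k R * D ^ 2 + 1)) ^ (Module.finrank k R * D ^ 2) : ℕ) :
        ℕ∞) := by
  classical
  have hfin : ∀ n, Module.Finite R (N n) := fun n => Module.Finite.of_surjective (g n) (hg n)
  have hkfin : ∀ n, Module.Finite k (N n) := fun n => Module.Finite.trans R (N n)
  have hself := self_all f g hf hg hex h2 le_rfl h1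
  set r := Module.finrank k R
  have hpos : ∀ n, 1 ≤ Module.finrank k (N n) := by
    intro n
    by_contra hcon
    have h4 : Module.finrank k (N n) = 0 := by omega
    have h5 : Subsingleton (N n) := Module.finrank_zero_iff.1 h4
    exact hnp (descend f g hf hg hex (r_all f g hf hg hex h2) n hfin inferInstance)
  -- fibres
  have hfib : ∀ (S : Finset ℕ) (d : ℕ), (∀ n ∈ S, Module.finrank k (N n) = d) →
      S.card ≤ ((d + 1) * (r * d ^ 2 + 1)) ^ (r * d ^ 2) := by
    intro S d hS
    have h4 := mod_count (k := k) (R := R) d (J := S) (fun n => N n.1) (fun n => hS n.1 n.2)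
      (fun n => hself n.1) (fun i j hij ⟨e⟩ => by
        rcases lt_trichotomy i.1 j.1 with h | h | h
        · exact hnp (proj_of_iso' f g hf hg hex h2 h3 h e)
        · exact hij (Subtype.ext h)
        · exact hnp (proj_of_iso' f g hf hg hex h2 h3 h e.symm))
    rwa [Fintype.card_coe] at h4
  have hmono : ∀ d, d ≤ D → ((d + 1) * (r * d ^ 2 + 1)) ^ (r * d ^ 2) ≤
      ((D + 1) * (r * D ^ 2 + 1)) ^ (r * D ^ 2) := by
    intro d hd
    have h4 : r * d ^ 2 ≤ r * D ^ 2 := Nat.mul_le_mul_left r (Nat.pow_le_pow_left hd 2)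
    refine (Nat.pow_le_pow_left (Nat.mul_le_mul (by omega) (by omega)) _).trans
      (Nat.pow_le_pow_right (Nat.mul_pos (Nat.succ_pos _) (Nat.succ_pos _)) h4)
  by_contra hcon
  rw [not_le] at hcon
  obtain ⟨T, hT, hTc⟩ := Set.exists_subset_encard_eq (Order.add_one_le_of_lt hcon)
  have hTf : T.Finite := by
    rw [← Set.encard_ne_top_iff, hTc]
    exact_mod_cast ENat.natCast_ne_top _
  have h4 : hTf.toFinset.card ≤
      (((D + 1) * (r * D ^ 2 + 1)) ^ (r * D ^ 2)) *
        (hTf.toFinset.image fun n => Module.finrank k (N n)).card := by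
    refine Finset.card_le_mul_card_image _ _ fun d hd => ?_
    obtain ⟨n, hn, rfl⟩ := Finset.mem_image.1 hd
    refine (hfib _ (Module.finrank k (N n)) fun n' hn' => (Finset.mem_filter.1 hn').2).trans ?_
    exact hmono _ (hT (hTf.mem_toFinset.1 hn))
  have h5 : (hTf.toFinset.image fun n => Module.finrank k (N n)).card ≤ D := by
    have h6 : (hTf.toFinset.image fun n => Module.finrank k (N n)) ⊆ Finset.Icc 1 D := by
      intro d hd
      obtain ⟨n, hn, rfl⟩ := Finset.mem_image.1 hd
      exact Finset.mem_Icc.2 ⟨hpos n, hT (hTf.mem_toFinset.1 hn)⟩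
    refine (Finset.card_le_card h6).trans ?_
    rw [Nat.card_Icc]
    omega
  have h7 : T.encard = (hTf.toFinset.card : ℕ∞) := hTf.encard_eq_coe_toFinset_card
  rw [h7] at hTc
  have h8 : hTf.toFinset.card =
      D * ((D + 1) * (r * D ^ 2 + 1)) ^ (r * D ^ 2) + 1 := by exact_mod_cast hTc
  have h9 := h4.trans (Nat.mul_le_mul_left _ h5)
  rw [mul_comm] at h9
  omega

end main

end P195
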