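import Mathlib

/-!
# P195: syzygies and vanishing of `Ext`
-/

namespace P195

open CategoryTheory Abelian

universe u

variable {R : Type u} [Ring R]

/-- vanishing of all positive extension groups from `A` to `B` -/
def ExtZero (A B : ModuleCat.{u} R) : Prop := ∀ i : ℕ, 1 ≤ i → Subsingleton (Ext.{u} A B i)

/-- syzygies: first variable -/
lemma shift_left {S : ShortComplex (ModuleCat.{u} R)} (hS : S.ShortExact) [Projective S.X₂]
    (X : ModuleCat.{u} R) {i : ℕ} (hi : 1 ≤ i) (h : Subsingleton (Ext.{u} S.X₃ X (i + 1))) :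
    Subsingleton (Ext.{u} S.X₁ X i) := by
  refine subsingleton_of_forall_eq 0 fun x => ?_
  obtain ⟨x2, hx2⟩ := Ext.contravariant_sequence_exact₁ hS X x (add_comm 1 i)
    (Subsingleton.elim _ _)
  obtain ⟨j, rfl⟩ : ∃ j, i = j + 1 := ⟨i - 1, by omega⟩
  rw [← hx2, Ext.eq_zero_of_projective x2, Ext.comp_zero]

/-- syzygies: second variable -/
lemma shift_right {S : ShortComplex (ModuleCat.{u} R)} (hS : S.ShortExact)
    (X : ModuleCat.{u} R) {i : ℕ} (h2 : Subsingleton (Ext.{u} X S.X₂ (i + 1)))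
    (h3 : Subsingleton (Ext.{u} X S.X₃ i)) : Subsingleton (Ext.{u} X S.X₁ (i + 1)) := by
  refine subsingleton_of_forall_eq 0 fun x => ?_
  obtain ⟨x3, hx3⟩ := Ext.covariant_sequence_exact₁ X hS x (Subsingleton.elim _ _)
    (rfl : i + 1 = i + 1)
  rw [← hx3, Subsingleton.elim x3 0, Ext.zero_comp]

/-- extensions by finitely generated projective modules -/
lemma extZero_proj {X P : ModuleCat.{u} R} [Module.Finite R P] [Module.Projective R P] {i : ℕ}
    (h : Subsingleton (Ext.{u} X (ModuleCat.of R R) i)) : Subsingleton (Ext.{u} X P i) := by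
  refine subsingleton_of_forall_eq 0 fun x => ?_
  obtain ⟨m, f, hf⟩ := Module.Finite.exists_fin' R P
  obtain ⟨s, hs⟩ := Module.projective_lifting_property f LinearMap.id hf
  let a : Fin m → (P →ₗ[R] R) := fun j => LinearMap.proj j ∘ₗ s
  let b : Fin m → (R →ₗ[R] P) := fun j => LinearMap.toSpanSingleton R P (f (Pi.single j 1))
  have hid : 𝟙 P = ∑ j, ModuleCat.ofHom (a j) ≫ ModuleCat.ofHom (b j) := by
    have h1 : (LinearMap.id : P →ₗ[R] P) = ∑ j, b j ∘ₗ a j := by
      apply LinearMap.ext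
      intro p
      simp only [LinearMap.sum_apply, LinearMap.comp_apply, a, b, LinearMap.proj_apply,
        LinearMap.toSpanSingleton_apply, LinearMap.id_apply]
      conv_lhs => rw [← LinearMap.id_apply (R := R) p, ← hs]
      rw [LinearMap.comp_apply]
      conv_lhs => rw [← LinearMap.sum_single_apply (fun _ : Fin m => R) (s p)]
      rw [map_sum]
      refine Finset.sum_congr rfl fun j _ => ?_
      rw [← map_smul]
      congr 1
      ext t
      by_cases htj : t = j
      · subst htj; simp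
      · simp [Pi.single_apply, htj]
    ext p
    have h2 := LinearMap.congr_fun h1 p
    simpa using h2
  rw [← Ext.comp_mk₀_id x, hid, Ext.mk₀_sum, Ext.comp_sum]
  refine Finset.sum_eq_zero fun j _ => ?_
  rw [← Ext.mk₀_comp_mk₀, ← Ext.comp_assoc_of_second_deg_zero,
    Subsingleton.elim (x.comp (Ext.mk₀ (ModuleCat.ofHom (a j))) (add_zero i)) 0, Ext.zero_comp]

/-- splitting -/
lemma exists_section {S : ShortComplex (ModuleCat.{u} R)} (hS : S.ShortExact)
    (h : Subsingleton (Ext.{u} S.X₃ S.X₁ 1)) : ∃ s : S.X₃ ⟶ S.X₂, s ≫ S.g = 𝟙 S.X₃ := by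
  obtain ⟨x2, hx2⟩ := Ext.covariant_sequence_exact₃ S.X₃ hS (Ext.mk₀ (𝟙 S.X₃))
    (zero_add 1) (Subsingleton.elim _ _)
  refine ⟨Ext.addEquiv₀ x2, ?_⟩
  have h1 : x2 = Ext.mk₀ (Ext.addEquiv₀ x2) := (Ext.mk₀_addEquiv₀_apply x2).symm
  rw [h1, Ext.mk₀_comp_mk₀] at hx2
  exact (Ext.mk₀_bijective _ _).1 hx2

end P195
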