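import Vale.Agent.P195.Deg

/-!
# P195: the orbit of a rigid representation contains a basic open set of bounded degree
-/

namespace P195

section rep

variable {k : Type*} [Field k] {ι : Type*} [Fintype ι] {d s : ℕ}

/-- The orbit of a rigid representation contains a basic open set, given by a polynomial of
bounded degree. -/
theorem orbit_open_deg (c : ι → ι → ι → k) (B : Module.Basis (Fin s) k (Tup k ι d))
    (ρ : Tup k ι d) (h : Rigid c ρ) :
    ∃ f : Tup k ι d → k, IsPol B (s + d * (s + 1)) f ∧ f ρ ≠ 0 ∧ ∀ σ, IsRep c σ → f σ ≠ 0 →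
      ∃ φ : Matrix (Fin d) (Fin d) k, φ.det ≠ 0 ∧ ∀ i, σ i * φ = φ * ρ i := by
  classical
  obtain ⟨hρ, hex⟩ := h
  obtain ⟨h0, h1, hh⟩ := homotopy (Dm ρ ρ) (dm c ρ ρ) hex
  let E : Tup k ι d → (Tup k ι d →ₗ[k] Tup k ι d) := fun σ =>
    Dm ρ σ ∘ₗ h0 + h1 ∘ₗ dm c ρ σ
  let e : Tup k ι d → Matrix _ _ k := fun σ => LinearMap.toMatrix B B (E σ)
  -- affine dependence
  let L1 : Matrix (Fin d) (Fin d) k → (Tup k ι d →ₗ[k] Tup k ι d) := fun x =>
    { toFun := fun σ i => σ i * x
      map_add' := fun σ τ => by funext i; exact add_mul _ _ _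
      map_smul' := fun t σ => by funext i; exact Matrix.smul_mul t (σ i) x }
  let L2 : Tup k ι d → (Tup k ι d →ₗ[k] (ι → ι → Matrix (Fin d) (Fin d) k)) := fun δ =>
    { toFun := fun σ i j => σ i * δ j
      map_add' := fun σ τ => by funext i j; exact add_mul _ _ _
      map_smul' := fun t σ => by funext i j; exact Matrix.smul_mul t (σ i) (δ j) }
  have hD : ∀ σ x, Dm ρ σ x = L1 x σ + Dm ρ 0 x := by
    intro σ x
    funext i
    simp [Dm, L1, sub_eq_add_neg]
  have hd : ∀ σ δ, dm c ρ σ δ = L2 δ σ + dm c ρ 0 δ := by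
    intro σ δ
    funext i j
    simp only [dm, L2, LinearMap.coe_mk, AddHom.coe_mk, Pi.add_apply, Pi.zero_apply, zero_mul,
      zero_sub]
    abel
  have he : ∀ p q, IsPol B 1 (fun σ => e σ p q) := by
    intro p q
    have h2 : (fun σ => e σ p q) = fun σ => ((B.coord p ∘ₗ L1 (h0 (B q))) σ +
        B.coord p (Dm ρ 0 (h0 (B q)))) + ((B.coord p ∘ₗ h1 ∘ₗ L2 (B q)) σ +
        B.coord p (h1 (dm c ρ 0 (B q)))) := by
      funext σ
      simp only [e, E, LinearMap.toMatrix_apply, LinearMap.add_apply, LinearMap.comp_apply,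
        Module.Basis.coord_apply]
      rw [hD, hd, map_add h1, map_add, map_add, map_add]
      simp only [Finsupp.add_apply]
    rw [h2]
    exact ((isPol_lin _).add ((isPol_const _).mono (Nat.zero_le 1))).add
      ((isPol_lin _).add ((isPol_const _).mono (Nat.zero_le 1)))
  have hdet : IsPol B s (fun σ => (e σ).det) := by
    have h2 := isPol_det he
    rwa [Fintype.card_fin, mul_one] at h2
  have hadj : ∀ i j, IsPol B s (fun σ => (e σ).adjugate i j) := by
    intro i j
    have h2 := isPol_adj he i j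
    rwa [Fintype.card_fin, mul_one] at h2
  let y : Tup k ι d → Fin s → k := fun σ => (e σ).adjugate.mulVec (B.repr (σ - ρ))
  have hy : ∀ p, IsPol B (s + 1) (fun σ => y σ p) := by
    intro p
    have h2 : (fun σ => y σ p) = fun σ => ∑ q, (e σ).adjugate p q *
        (B.repr σ q - B.repr ρ q) := by
      funext σ
      simp only [y, Matrix.mulVec, dotProduct, map_sub, Finsupp.sub_apply]
    rw [h2]
    exact isPol_sum _ fun q _ => (hadj p q).mul
      ((isPol_coord q).sub ((isPol_const _).mono (Nat.zero_le 1)))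
  let Φ : Tup k ι d → Matrix (Fin d) (Fin d) k := fun σ =>
    (e σ).det • (1 : Matrix (Fin d) (Fin d) k) - h0 (∑ p, y σ p • B p)
  have hΦ : ∀ a b, IsPol B (s + 1) (fun σ => Φ σ a b) := by
    intro a b
    have h2 : (fun σ => Φ σ a b) = fun σ => (e σ).det * (1 : Matrix (Fin d) (Fin d) k) a b
        - ∑ p, y σ p * (h0 (B p)) a b := by
      funext σ
      simp only [Φ, map_sum, map_smul, Matrix.sub_apply, Matrix.smul_apply, smul_eq_mul,
        Matrix.sum_apply]
    rw [h2]
    exact (((hdet.mul (isPol_const _)).mono (Nat.le_succ s))).sub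
      (isPol_sum _ fun p _ => (hy p).mul (isPol_const _))
  have hΦdet : IsPol B (d * (s + 1)) (fun σ => (Φ σ).det) := by
    have h2 := isPol_det hΦ
    rwa [Fintype.card_fin] at h2
  refine ⟨fun σ => (e σ).det * (Φ σ).det, hdet.mul hΦdet, ?_, ?_⟩
  · have h2 : E ρ = LinearMap.id := by
      apply LinearMap.ext
      intro x
      exact hh x
    have h3 : (e ρ).det = 1 := by
      simp only [e]
      rw [h2, LinearMap.toMatrix_id, Matrix.det_one]
    have h4 : Φ ρ = 1 := by
      simp only [Φ, y]
      rw [h3, sub_self]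
      simp
    show (e ρ).det * (Φ ρ).det ≠ 0
    rw [h3, h4, Matrix.det_one, one_mul]
    exact one_ne_zero
  · intro σ hσ hf
    have hdσ : (e σ).det ≠ 0 := left_ne_zero_of_mul hf
    refine ⟨Φ σ, right_ne_zero_of_mul hf, ?_⟩
    set w : Tup k ι d := ∑ p, y σ p • B p with hw
    have hwr : (B.repr w : _ → k) = y σ := by
      rw [hw]
      exact B.repr_sum_self (y σ)
    have hEw : E σ w = (e σ).det • (σ - ρ) := by
      apply B.repr.injective
      have h2 := LinearMap.toMatrix_mulVec_repr B B (E σ) w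
      rw [hwr] at h2
      ext q
      rw [← congrFun h2 q]
      simp only [y]
      show ((e σ).mulVec ((e σ).adjugate.mulVec _)) q = _
      rw [Matrix.mulVec_mulVec, Matrix.mul_adjugate, Matrix.smul_mulVec, Matrix.one_mulVec,
        map_smul]
      rfl
    have hEinj : Function.Injective (E σ) := by
      intro a b hab
      have h2 : (e σ).mulVec (B.repr a) = (e σ).mulVec (B.repr b) := by
        rw [LinearMap.toMatrix_mulVec_repr, LinearMap.toMatrix_mulVec_repr, hab]
      have h3 := Matrix.mulVec_injective_of_isUnit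
        ((Matrix.isUnit_iff_isUnit_det (e σ)).2 (isUnit_iff_ne_zero.2 hdσ)) h2
      exact B.repr.injective (DFunLike.coe_injective h3)
    -- `E` preserves the kernel of `dm`
    have hEk : ∀ x ∈ LinearMap.ker (dm c ρ σ), E σ x ∈ LinearMap.ker (dm c ρ σ) := by
      intro x hx
      rw [LinearMap.mem_ker] at hx ⊢
      simp only [E, LinearMap.add_apply, LinearMap.comp_apply]
      rw [hx, map_zero, add_zero]
      exact dm_Dm c ρ σ hρ hσ _
    have hsurj : Function.Surjective ((E σ).restrict hEk) := by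
      apply LinearMap.surjective_of_injective
      intro a b hab
      apply Subtype.ext
      exact hEinj (congrArg Subtype.val hab)
    have hker : (e σ).det • (σ - ρ) ∈ LinearMap.ker (dm c ρ σ) := by
      apply Submodule.smul_mem
      rw [LinearMap.mem_ker, ← Dm_one]
      exact dm_Dm c ρ σ hρ hσ 1
    obtain ⟨w', hw'⟩ := hsurj ⟨_, hker⟩
    have h3 : E σ w'.1 = (e σ).det • (σ - ρ) := congrArg Subtype.val hw'
    have h4 : w'.1 = w := hEinj (h3.trans hEw.symm)
    have h5 : dm c ρ σ w = 0 := by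
      rw [← h4]
      exact w'.2
    have h6 : Dm ρ σ (h0 w) = (e σ).det • (σ - ρ) := by
      rw [← hEw]
      simp only [E, LinearMap.add_apply, LinearMap.comp_apply]
      rw [h5, map_zero, add_zero]
    have h7 : Dm ρ σ (Φ σ) = 0 := by
      simp only [Φ]
      rw [map_sub, map_smul, Dm_one, ← hw, h6, sub_self]
    intro i
    exact sub_eq_zero.1 (congrFun h7 i)

/-- There are few pairwise non-isomorphic rigid representations of a given dimension. -/
theorem rigid_count (c : ι → ι → ι → k) {J : Type*} [Fintype J] (ρ : J → Tup k ι d)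
    (h : ∀ n, Rigid c (ρ n))
    (hne : ∀ i j, i ≠ j → ¬ ∃ φ : Matrix (Fin d) (Fin d) k, φ.det ≠ 0 ∧
      ∀ l, ρ j l * φ = φ * ρ i l) :
    Fintype.card J ≤ ((d + 1) * (Fintype.card ι * d ^ 2 + 1)) ^ (Fintype.card ι * d ^ 2) := by
  classical
  have hs : Module.finrank k (Tup k ι d) = Fintype.card ι * d ^ 2 := by
    rw [Module.finrank_pi_fintype]
    simp only [Module.finrank_matrix, Fintype.card_fin, Module.finrank_self, mul_one,
      Finset.sum_const, Finset.card_univ, smul_eq_mul]
    rw [sq]
  let B := Module.finBasisOfFinrankEq k (Tup k ι d) hs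
  choose f hf1 hf2 hf3 using fun n => orbit_open_deg c B (ρ n) (h n)
  have h1 := isPol_count (B := B) ρ f hf1 hf2 (fun i j hij => by
    by_contra hcon
    exact hne i j hij (hf3 i (ρ j) (h j).1 hcon))
  refine h1.trans (le_of_eq ?_)
  congr 1
  ring

end rep

end P195
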