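import Mathlib

/-!
# P195: the orbit of a rigid representation contains a basic open set
-/

namespace P195

/-! ## polynomial functions on a finite-dimensional space -/

section poly

variable (k : Type*) [Field k] (V : Type*) [AddCommGroup V] [Module k V]

/-- the algebra of polynomial functions -/
def Pol : Subalgebra k (V → k) :=
  Algebra.adjoin k (Set.range fun l : V →ₗ[k] k => (l : V → k))

variable {k V}

lemma lin_mem (l : V →ₗ[k] k) : (fun v => l v) ∈ Pol k V := Algebra.subset_adjoin ⟨l, rfl⟩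

lemma const_mem (c : k) : (fun _ : V => c) ∈ Pol k V := (Pol k V).algebraMap_mem c

variable (k V) in
lemma noeth [Module.Finite k V] : IsNoetherianRing (Pol k V) := by
  let b := Module.finBasis k (V →ₗ[k] k)
  have h1 : Pol k V = Algebra.adjoin k (Set.range fun i => (b i : V → k)) := by
    apply le_antisymm
    · refine Algebra.adjoin_le ?_
      rintro _ ⟨l, rfl⟩
      have h2 : (l : V → k) = ∑ i, b.repr l i • (b i : V → k) := by
        funext v
        have h3 := LinearMap.congr_fun (b.sum_repr l) v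
        rw [← h3]
        simp only [LinearMap.sum_apply, LinearMap.smul_apply, Finset.sum_apply, Pi.smul_apply]
      show (l : V → k) ∈ _
      rw [h2]
      exact Subalgebra.sum_mem _ fun i _ =>
        Subalgebra.smul_mem _ (Algebra.subset_adjoin (Set.mem_range_self i)) _
    · refine Algebra.adjoin_mono ?_
      rintro _ ⟨i, rfl⟩
      exact Set.mem_range_self (b i)
  have h2 : (Pol k V).FG := by
    rw [Subalgebra.fg_def]
    exact ⟨_, Set.finite_range _, h1.symm⟩
  have : Algebra.FiniteType k (Pol k V) := (Subalgebra.fg_iff_finiteType _).1 h2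
  exact Algebra.FiniteType.isNoetherianRing k (Pol k V)

lemma pigeon [Module.Finite k V] (x : ℕ → V) (f : ℕ → (V → k)) (hf : ∀ n, f n ∈ Pol k V)
    (h0 : ∀ n, f n (x n) ≠ 0) : ∃ n i, i < n ∧ f i (x n) ≠ 0 := by
  have := noeth k V
  let F : ℕ → Pol k V := fun n => ⟨f n, hf n⟩
  let I : ℕ →o Ideal (Pol k V) :=
    ⟨fun n => Ideal.span (F '' Set.Iio n), fun a b h =>
      Ideal.span_mono (Set.image_mono (Set.Iio_subset_Iio h))⟩
  obtain ⟨n, hn⟩ := monotone_stabilizes_iff_noetherian.2 (inferInstance :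
    IsNoetherian (Pol k V) (Pol k V)) I
  have h1 : F n ∈ Ideal.span (F '' Set.Iio n) := by
    have h2 : F n ∈ I (n + 1) := Ideal.subset_span ⟨n, Nat.lt_succ_self n, rfl⟩
    rw [← hn (n + 1) (Nat.le_succ n)] at h2
    exact h2
  by_contra hcon
  push Not at hcon
  let ev : Pol k V →+* k := (Pi.evalRingHom (fun _ : V => k) (x n)).comp (Pol k V).val.toRingHom
  have h3 : Ideal.span (F '' Set.Iio n) ≤ RingHom.ker ev := by
    rw [Ideal.span_le]
    rintro _ ⟨i, hi, rfl⟩
    exact hcon n i hi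
  exact h0 n (h3 h1)

variable {m : Type*} [Fintype m] [DecidableEq m]

lemma det_adj_mem (M : V → Matrix m m k) (h : ∀ i j, (fun v => M v i j) ∈ Pol k V) :
    (fun v => (M v).det) ∈ Pol k V ∧ ∀ i j, (fun v => (M v).adjugate i j) ∈ Pol k V := by
  let N : Matrix m m (Pol k V) := fun i j => ⟨_, h i j⟩
  have hN : ∀ v, N.map ((Pi.evalRingHom (fun _ : V => k) v).comp (Pol k V).val.toRingHom) =
      M v := by
    intro v
    ext i j
    rfl
  constructor
  · have h1 : (fun v => (M v).det) = ((N.det : Pol k V) : V → k) := by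
      funext v
      rw [← hN v]
      exact (RingHom.map_det ((Pi.evalRingHom (fun _ : V => k) v).comp
        (Pol k V).val.toRingHom) N).symm
    rw [h1]
    exact N.det.2
  · intro i j
    have h1 : (fun v => (M v).adjugate i j) = ((N.adjugate i j : Pol k V) : V → k) := by
      funext v
      rw [← hN v]
      have h2 := RingHom.map_adjugate ((Pi.evalRingHom (fun _ : V => k) v).comp
        (Pol k V).val.toRingHom) N
      exact (congrFun (congrFun h2 i) j).symm
    rw [h1]
    exact (N.adjugate i j).2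

end poly

/-! ## homotopies -/

section homotopy

variable {k : Type*} [Field k] {C0 C1 C2 : Type*} [AddCommGroup C0] [AddCommGroup C1]
  [AddCommGroup C2] [Module k C0] [Module k C1] [Module k C2]

lemma ginv (f : C0 →ₗ[k] C1) : ∃ g : C1 →ₗ[k] C0, ∀ v, f (g (f v)) = f v := by
  obtain ⟨s, hs⟩ := f.rangeRestrict.exists_rightInverse_of_surjective f.range_rangeRestrict
  obtain ⟨g, hg⟩ := s.exists_extend
  refine ⟨g, fun v => ?_⟩
  have h1 : g (f v) = s (f.rangeRestrict v) := by
    rw [← hg]; rfl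
  rw [h1]
  have h2 := LinearMap.congr_fun hs (f.rangeRestrict v)
  exact congrArg Subtype.val h2

lemma homotopy (D : C0 →ₗ[k] C1) (d1 : C1 →ₗ[k] C2)
    (hex : ∀ x, d1 x = 0 → ∃ y, D y = x) :
    ∃ (h0 : C1 →ₗ[k] C0) (h1 : C2 →ₗ[k] C1), ∀ x, D (h0 x) + h1 (d1 x) = x := by
  obtain ⟨g0, hg0⟩ := ginv D
  obtain ⟨g1, hg1⟩ := ginv d1
  refine ⟨g0 ∘ₗ (LinearMap.id - g1 ∘ₗ d1), g1, fun x => ?_⟩
  obtain ⟨y, hy⟩ := hex (x - g1 (d1 x)) (by rw [map_sub, hg1, sub_self])
  simp only [LinearMap.comp_apply, LinearMap.sub_apply, LinearMap.id_apply]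
  rw [← hy, hg0, hy, sub_add_cancel]

end homotopy

/-! ## representations -/

section rep

variable {k : Type*} [Field k] {ι : Type*} [Fintype ι] {d : ℕ}

/-- tuples of matrices -/
abbrev Tup (k ι : Type*) (d : ℕ) := ι → Matrix (Fin d) (Fin d) k

/-- the tuple satisfies the multiplication rules with structure constants `c` -/
def IsRep (c : ι → ι → ι → k) (σ : Tup k ι d) : Prop := ∀ i j, σ i * σ j = ∑ l, c i j l • σ l

/-- intertwiner defect -/
def Dm (ρ σ : Tup k ι d) : Matrix (Fin d) (Fin d) k →ₗ[k] Tup k ι d where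
  toFun φ := fun i => σ i * φ - φ * ρ i
  map_add' φ ψ := by
    funext i
    simp only [Pi.add_apply]
    rw [mul_add, add_mul]
    abel
  map_smul' t φ := by
    funext i
    simp only [Pi.smul_apply, RingHom.id_apply]
    rw [Matrix.mul_smul, Matrix.smul_mul, smul_sub]

/-- cocycle defect -/
def dm (c : ι → ι → ι → k) (ρ σ : Tup k ι d) :
    Tup k ι d →ₗ[k] (ι → ι → Matrix (Fin d) (Fin d) k) where
  toFun δ := fun i j => σ i * δ j - ∑ l, c i j l • δ l + δ i * ρ j
  map_add' δ δ' := by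
    funext i j
    simp only [Pi.add_apply, smul_add, Finset.sum_add_distrib]
    rw [mul_add, add_mul]
    abel
  map_smul' t δ := by
    funext i j
    simp only [Pi.smul_apply, RingHom.id_apply]
    rw [Matrix.mul_smul, Matrix.smul_mul, smul_add, smul_sub, Finset.smul_sum]
    congr 2
    refine Finset.sum_congr rfl fun l _ => ?_
    rw [smul_comm]

lemma dm_Dm (c : ι → ι → ι → k) (ρ σ : Tup k ι d) (hρ : IsRep c ρ) (hσ : IsRep c σ)
    (φ : Matrix (Fin d) (Fin d) k) : dm c ρ σ (Dm ρ σ φ) = 0 := by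
  funext i j
  simp only [dm, Dm, LinearMap.coe_mk, AddHom.coe_mk, Pi.zero_apply]
  have h1 : ∑ l, c i j l • (σ l * φ - φ * ρ l) = σ i * σ j * φ - φ * (ρ i * ρ j) := by
    rw [hσ i j, hρ i j, Finset.sum_mul, Finset.mul_sum, ← Finset.sum_sub_distrib]
    refine Finset.sum_congr rfl fun l _ => ?_
    rw [smul_sub, Matrix.smul_mul, Matrix.mul_smul]
  rw [h1]
  noncomm_ring

omit [Fintype ι] in
lemma Dm_one (ρ σ : Tup k ι d) : Dm ρ σ 1 = σ - ρ := by
  funext i
  simp [Dm]

/-- rigidity of a tuple -/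
def Rigid (c : ι → ι → ι → k) (ρ : Tup k ι d) : Prop :=
  IsRep c ρ ∧ ∀ δ : Tup k ι d, dm c ρ ρ δ = 0 → ∃ φ, Dm ρ ρ φ = δ

/-- The orbit of a rigid representation contains a basic open set. -/
theorem orbit_open (c : ι → ι → ι → k) (ρ : Tup k ι d) (h : Rigid c ρ) :
    ∃ f ∈ Pol k (Tup k ι d), f ρ ≠ 0 ∧ ∀ σ, IsRep c σ → f σ ≠ 0 →
      ∃ φ : Matrix (Fin d) (Fin d) k, φ.det ≠ 0 ∧ ∀ i, σ i * φ = φ * ρ i := by
  classical
  obtain ⟨hρ, hex⟩ := h
  obtain ⟨h0, h1, hh⟩ := homotopy (Dm ρ ρ) (dm c ρ ρ) hex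
  let B := Module.finBasis k (Tup k ι d)
  let E : Tup k ι d → (Tup k ι d →ₗ[k] Tup k ι d) := fun σ =>
    Dm ρ σ ∘ₗ h0 + h1 ∘ₗ dm c ρ σ
  let e : Tup k ι d → Matrix _ _ k := fun σ => LinearMap.toMatrix B B (E σ)
  -- affine dependence
  let L1 : Matrix (Fin d) (Fin d) k → (Tup k ι d →ₗ[k] Tup k ι d) := fun x =>
    { toFun := fun σ i => σ i * x
      map_add' := fun σ τ => by funext i; exact add_mul _ _ _
      map_smul' := fun t σ => by funext i; exact Matrix.smul_mul t (σ i) x }
  let L2 : Tup k ι d → (Tup k ι d →ₗ[k] (ι → ι → Matrix (Fin d) (Fin d) k)) := fun δ =>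
    { toFun := fun σ i j => σ i * δ j
      map_add' := fun σ τ => by funext i j; exact add_mul _ _ _
      map_smul' := fun t σ => by funext i j; exact Matrix.smul_mul t (σ i) (δ j) }
  have hD : ∀ σ x, Dm ρ σ x = L1 x σ + Dm ρ 0 x := by
    intro σ x
    funext i
    simp [Dm, L1, sub_eq_add_neg]
  have hd : ∀ σ δ, dm c ρ σ δ = L2 δ σ + dm c ρ 0 δ := by
    intro σ δ
    funext i j
    simp only [dm, L2, LinearMap.coe_mk, AddHom.coe_mk, Pi.add_apply, Pi.zero_apply, zero_mul,
      zero_sub]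
    abel
  have he : ∀ p q, (fun σ => e σ p q) ∈ Pol k (Tup k ι d) := by
    intro p q
    have h2 : (fun σ => e σ p q) = (fun σ => (B.coord p ∘ₗ L1 (h0 (B q))) σ) +
        (fun _ => B.coord p (Dm ρ 0 (h0 (B q)))) + (fun σ => (B.coord p ∘ₗ h1 ∘ₗ L2 (B q)) σ) +
        (fun _ => B.coord p (h1 (dm c ρ 0 (B q)))) := by
      funext σ
      simp only [e, E, LinearMap.toMatrix_apply, LinearMap.add_apply, LinearMap.comp_apply,
        Pi.add_apply, Module.Basis.coord_apply]
      rw [hD, hd, map_add h1, map_add, map_add, map_add]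
      simp only [Finsupp.add_apply]
      ring
    rw [h2]
    exact Subalgebra.add_mem _ (Subalgebra.add_mem _ (Subalgebra.add_mem _ (lin_mem _)
      (const_mem _)) (lin_mem _)) (const_mem _)
  obtain ⟨hdet, hadj⟩ := det_adj_mem e he
  let y : Tup k ι d → Fin (Module.finrank k (Tup k ι d)) → k := fun σ =>
    (e σ).adjugate.mulVec (B.repr (σ - ρ))
  have hy : ∀ p, (fun σ => y σ p) ∈ Pol k (Tup k ι d) := by
    intro p
    have h2 : (fun σ => y σ p) = ∑ q, (fun σ => (e σ).adjugate p q) *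
        ((fun σ => B.coord q σ) - fun _ => B.coord q ρ) := by
      funext σ
      simp only [y, Matrix.mulVec, dotProduct, Finset.sum_apply, Pi.mul_apply, Pi.sub_apply,
        Module.Basis.coord_apply, map_sub, Finsupp.sub_apply]
    rw [h2]
    exact Subalgebra.sum_mem _ fun q _ => Subalgebra.mul_mem _ (hadj p q)
      (Subalgebra.sub_mem _ (lin_mem _) (const_mem _))
  let Φ : Tup k ι d → Matrix (Fin d) (Fin d) k := fun σ =>
    (e σ).det • (1 : Matrix (Fin d) (Fin d) k) - h0 (∑ p, y σ p • B p)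
  have hΦ : ∀ a b, (fun σ => Φ σ a b) ∈ Pol k (Tup k ι d) := by
    intro a b
    have h2 : (fun σ => Φ σ a b) = (fun σ => (e σ).det) * (fun _ => (1 : Matrix (Fin d) (Fin d) k) a b)
        - ∑ p, (fun σ => y σ p) * (fun _ => (h0 (B p)) a b) := by
      funext σ
      simp only [Φ, map_sum, map_smul, Matrix.sub_apply, Matrix.smul_apply, smul_eq_mul,
        Matrix.sum_apply, Pi.sub_apply, Pi.mul_apply, Finset.sum_apply]
    rw [h2]
    exact Subalgebra.sub_mem _ (Subalgebra.mul_mem _ hdet (const_mem _))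
      (Subalgebra.sum_mem _ fun p _ => Subalgebra.mul_mem _ (hy p) (const_mem _))
  obtain ⟨hΦdet, -⟩ := det_adj_mem Φ hΦ
  refine ⟨(fun σ => (e σ).det) * (fun σ => (Φ σ).det), Subalgebra.mul_mem _ hdet hΦdet, ?_, ?_⟩
  · have h2 : E ρ = LinearMap.id := by
      apply LinearMap.ext
      intro x
      exact hh x
    have h3 : (e ρ).det = 1 := by
      simp only [e]
      rw [h2, LinearMap.toMatrix_id, Matrix.det_one]
    have h4 : Φ ρ = 1 := by
      simp only [Φ, y]
      rw [h3, sub_self]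
      simp
    rw [Pi.mul_apply, h3, h4, Matrix.det_one, one_mul]
    exact one_ne_zero
  · intro σ hσ hf
    rw [Pi.mul_apply] at hf
    have hdσ : (e σ).det ≠ 0 := left_ne_zero_of_mul hf
    refine ⟨Φ σ, right_ne_zero_of_mul hf, ?_⟩
    set w : Tup k ι d := ∑ p, y σ p • B p with hw
    have hwr : (B.repr w : _ → k) = y σ := by
      rw [hw]
      exact B.repr_sum_self (y σ)
    have hEw : E σ w = (e σ).det • (σ - ρ) := by
      apply B.repr.injective
      have h2 := LinearMap.toMatrix_mulVec_repr B B (E σ) w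
      rw [hwr] at h2
      ext q
      rw [← congrFun h2 q]
      simp only [y]
      show ((e σ).mulVec ((e σ).adjugate.mulVec _)) q = _
      rw [Matrix.mulVec_mulVec, Matrix.mul_adjugate, Matrix.smul_mulVec, Matrix.one_mulVec,
        map_smul]
      rfl
    have hEinj : Function.Injective (E σ) := by
      intro a b hab
      have h2 : (e σ).mulVec (B.repr a) = (e σ).mulVec (B.repr b) := by
        rw [LinearMap.toMatrix_mulVec_repr, LinearMap.toMatrix_mulVec_repr, hab]
      have h3 := Matrix.mulVec_injective_of_isUnit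
        ((Matrix.isUnit_iff_isUnit_det (e σ)).2 (isUnit_iff_ne_zero.2 hdσ)) h2
      exact B.repr.injective (DFunLike.coe_injective h3)
    -- `E` preserves the kernel of `dm`
    have hEk : ∀ x ∈ LinearMap.ker (dm c ρ σ), E σ x ∈ LinearMap.ker (dm c ρ σ) := by
      intro x hx
      rw [LinearMap.mem_ker] at hx ⊢
      simp only [E, LinearMap.add_apply, LinearMap.comp_apply]
      rw [hx, map_zero, add_zero]
      exact dm_Dm c ρ σ hρ hσ _
    have hsurj : Function.Surjective ((E σ).restrict hEk) := by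
      apply LinearMap.surjective_of_injective
      intro a b hab
      apply Subtype.ext
      exact hEinj (congrArg Subtype.val hab)
    have hker : (e σ).det • (σ - ρ) ∈ LinearMap.ker (dm c ρ σ) := by
      apply Submodule.smul_mem
      rw [LinearMap.mem_ker, ← Dm_one]
      exact dm_Dm c ρ σ hρ hσ 1
    obtain ⟨w', hw'⟩ := hsurj ⟨_, hker⟩
    have h3 : E σ w'.1 = (e σ).det • (σ - ρ) := congrArg Subtype.val hw'
    have h4 : w'.1 = w := hEinj (h3.trans hEw.symm)
    have h5 : dm c ρ σ w = 0 := by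
      rw [← h4]
      exact w'.2
    have h6 : Dm ρ σ (h0 w) = (e σ).det • (σ - ρ) := by
      rw [← hEw]
      simp only [E, LinearMap.add_apply, LinearMap.comp_apply]
      rw [h5, map_zero, add_zero]
    have h7 : Dm ρ σ (Φ σ) = 0 := by
      simp only [Φ]
      rw [map_sub, map_smul, Dm_one, ← hw, h6, sub_self]
    intro i
    exact sub_eq_zero.1 (congrFun h7 i)

/-- among infinitely many rigid representations of the same dimension two are isomorphic -/
theorem rigid_pigeon (c : ι → ι → ι → k) (ρ : ℕ → Tup k ι d) (h : ∀ n, Rigid c (ρ n)) :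
    ∃ n i, i < n ∧ ∃ φ : Matrix (Fin d) (Fin d) k, φ.det ≠ 0 ∧
      ∀ j, ρ n j * φ = φ * ρ i j := by
  choose f hf1 hf2 hf3 using fun n => orbit_open c (ρ n) (h n)
  obtain ⟨n, i, hi, hne⟩ := pigeon ρ f hf1 hf2
  obtain ⟨φ, hφ, hφ2⟩ := hf3 i (ρ n) (h n).1 hne
  exact ⟨n, i, hi, φ, hφ, hφ2⟩

end rep

end P195
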