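import Vale.Agent.P195.Rigid
import Vale.Agent.P195.ExtPart

/-!
# P195: from `Ext 1 = 0` to rigid tuples of matrices
-/

namespace P195

open CategoryTheory Abelian

universe u

/-- the underlying group of the extension attached to a cocycle -/
def Tw (N : Type u) : Type u := N × N

instance (N : Type u) [AddCommGroup N] : AddCommGroup (Tw N) :=
  inferInstanceAs (AddCommGroup (N × N))

section tw

variable {R : Type u} [Ring R] {N : Type u} [AddCommGroup N] [Module R N]

/-- the module attached to a cocycle -/
@[reducible] def twModule (D : R → N → N) (h1 : ∀ r s x, D (r + s) x = D r x + D s x)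
    (h2 : ∀ r x y, D r (x + y) = D r x + D r y)
    (h3 : ∀ r s x, D (r * s) x = r • D s x + D r (s • x)) (h4 : ∀ x, D 1 x = 0) :
    Module R (Tw N) where
  smul r z := ((r • z.1 + D r z.2, r • z.2) : N × N)
  one_smul z := by
    show ((1 : R) • z.1 + D 1 z.2, (1 : R) • z.2) = z
    rw [h4, one_smul, one_smul, add_zero]
    rfl
  mul_smul r s z := by
    show ((r * s) • z.1 + D (r * s) z.2, (r * s) • z.2) =
      (r • (s • z.1 + D s z.2) + D r (s • z.2), r • (s • z.2))
    rw [h3, mul_smul, mul_smul, smul_add, add_assoc]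
  smul_zero r := by
    show (r • (0 : N) + D r 0, r • (0 : N)) = (0, 0)
    have h5 : D r 0 = 0 := by
      have := h2 r 0 0
      rw [add_zero] at this
      simpa using this
    rw [h5, smul_zero, add_zero]
  smul_add r z w := by
    show (r • (z.1 + w.1) + D r (z.2 + w.2), r • (z.2 + w.2)) =
      ((r • z.1 + D r z.2) + (r • w.1 + D r w.2), r • z.2 + r • w.2)
    rw [h2, smul_add, smul_add]
    congr 1
    abel
  add_smul r s z := by
    show ((r + s) • z.1 + D (r + s) z.2, (r + s) • z.2) =
      ((r • z.1 + D r z.2) + (s • z.1 + D s z.2), r • z.2 + s • z.2)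
    rw [h1, add_smul, add_smul]
    congr 1
    abel
  zero_smul z := by
    show ((0 : R) • z.1 + D 0 z.2, (0 : R) • z.2) = (0, 0)
    have h5 : D 0 z.2 = 0 := by
      have := h1 0 0 z.2
      rw [add_zero] at this
      simpa using this
    rw [h5, zero_smul, zero_smul, add_zero]

/-- every cocycle is a coboundary if the first self-extension group vanishes -/
lemma exists_coboundary (D : R → N → N) (h1 : ∀ r s x, D (r + s) x = D r x + D s x)
    (h2 : ∀ r x y, D r (x + y) = D r x + D r y)
    (h3 : ∀ r s x, D (r * s) x = r • D s x + D r (s • x)) (h4 : ∀ x, D 1 x = 0)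
    (hE : Subsingleton (Ext.{u} (ModuleCat.of R N) (ModuleCat.of R N) 1)) :
    ∃ φ : N → N, (∀ x y, φ (x + y) = φ x + φ y) ∧ ∀ r x, D r x = φ (r • x) - r • φ x := by
  letI : Module R (Tw N) := twModule D h1 h2 h3 h4
  let f : N →ₗ[R] Tw N :=
    { toFun := fun x => ((x, 0) : N × N)
      map_add' := fun x y => by
        show (x + y, (0 : N)) = (x + y, 0 + 0)
        rw [add_zero]
      map_smul' := fun r x => by
        show (r • x, (0 : N)) = (r • x + D r 0, r • (0 : N))
        have h5 : D r 0 = 0 := by
          have := h2 r 0 0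
          rw [add_zero] at this
          simpa using this
        rw [h5, smul_zero, add_zero] }
  let g : Tw N →ₗ[R] N :=
    { toFun := fun z => z.2
      map_add' := fun _ _ => rfl
      map_smul' := fun _ _ => rfl }
  have hfi : Function.Injective f := fun x y h => congrArg (fun z : Tw N => z.1) h
  have hgs : Function.Surjective g := fun y => ⟨((0, y) : N × N), rfl⟩
  have hex : Function.Exact f g := by
    intro z
    constructor
    · intro hz
      refine ⟨z.1, ?_⟩
      have hz2 : z.2 = 0 := hz
      exact Prod.ext rfl hz2.symm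
    · rintro ⟨x, rfl⟩
      rfl
  let S : ShortComplex (ModuleCat.{u} R) := ShortComplex.mk (ModuleCat.ofHom f)
    (ModuleCat.ofHom g) (by ext x; exact (hex (f x)).2 ⟨x, rfl⟩)
  have hS : S.ShortExact :=
    { exact := (ShortComplex.moduleCat_exact_iff _).2 fun z hz => (hex z).1 hz
      mono_f := (ModuleCat.mono_iff_injective _).2 hfi
      epi_g := (ModuleCat.epi_iff_surjective _).2 hgs }
  obtain ⟨s, hs⟩ := exists_section hS hE
  have hs2 : ∀ x : N, (s.hom x : Tw N).2 = x := by
    intro x
    have := LinearMap.congr_fun (congrArg ModuleCat.Hom.hom hs) x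
    exact this
  refine ⟨fun x => (s.hom x : Tw N).1, fun x y => ?_, fun r x => ?_⟩
  · have := congrArg (fun z : Tw N => z.1) (s.hom.map_add x y)
    exact this
  · have h5 := congrArg (fun z : Tw N => z.1) (s.hom.map_smul r x)
    have h6 : (s.hom (r • x) : Tw N).1 = r • (s.hom x : Tw N).1 + D r (s.hom x : Tw N).2 := h5
    rw [hs2] at h6
    exact eq_sub_of_add_eq' h6.symm

end tw

section rep

variable {k R : Type u} [Field k] [Ring R] [Algebra k R] {ι : Type} [Fintype ι]
  (b : Module.Basis ι k R)
variable {N : Type u} [AddCommGroup N] [Module R N] [Module k N] [IsScalarTower k R N]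
  {d : ℕ} (e : Module.Basis (Fin d) k N)

/-- structure constants -/
noncomputable def sc : ι → ι → ι → k := fun i j l => b.repr (b i * b j) l

/-- the action of an element of the algebra as a linear map -/
def act (k : Type u) {R : Type u} [Field k] [Ring R] [Algebra k R] (N : Type u) [AddCommGroup N]
    [Module R N] [Module k N] [IsScalarTower k R N] (r : R) : N →ₗ[k] N where
  toFun x := r • x
  map_add' := smul_add r
  map_smul' t x := by
    rw [RingHom.id_apply, ← algebraMap_smul R t (r • x), ← algebraMap_smul R t x, smul_smul,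
      smul_smul, Algebra.commutes]

/-- the representation in coordinates -/
noncomputable def rho : Tup k ι d := fun i => LinearMap.toMatrix e e (act k N (b i))

lemma act_mul (r s : R) : act k N (r * s) = act k N r ∘ₗ act k N s := by
  ext x
  exact mul_smul r s x

lemma act_add (r s : R) : act k N (r + s) = act k N r + act k N s := by
  ext x
  exact add_smul r s x

lemma act_smul (t : k) (r : R) : act k N (t • r) = t • act k N r := by
  ext x
  exact smul_assoc t r x

lemma act_sum (f : ι → k) : act k N (∑ l, f l • b l) = ∑ l, f l • act k N (b l) := by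
  ext x
  simp only [act, LinearMap.coe_mk, AddHom.coe_mk, LinearMap.sum_apply, LinearMap.smul_apply,
    Finset.sum_smul, smul_assoc]

lemma mul_eq (i j : ι) : b i * b j = ∑ l, sc b i j l • b l := (b.sum_repr (b i * b j)).symm

lemma isRep : IsRep (sc b) (rho b e) := by
  intro i j
  simp only [rho]
  rw [← LinearMap.toMatrix_comp e e e, ← act_mul, mul_eq b i j, act_sum b, map_sum]
  refine Finset.sum_congr rfl fun l _ => ?_
  rw [map_smul]

lemma rigid (hE : Subsingleton (Ext.{u} (ModuleCat.of R N) (ModuleCat.of R N) 1)) :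
    Rigid (sc b) (rho b e) := by
  refine ⟨isRep b e, fun δ hδ => ?_⟩
  -- the derivation
  let T : Matrix (Fin d) (Fin d) k →ₗ[k] (N →ₗ[k] N) := (LinearMap.toMatrix e e).symm.toLinearMap
  let Dl : R →ₗ[k] (N →ₗ[k] N) := b.constr k fun i => T (δ i)
  have hDb : ∀ i, Dl (b i) = T (δ i) := fun i => b.constr_basis k _ i
  have hTm : ∀ A B, T (A * B) = T A ∘ₗ T B := by
    intro A B
    show (LinearMap.toMatrix e e).symm (A * B) = _
    exact Matrix.toLin_mul e e e A B
  have hTr : ∀ i, T (rho b e i) = act k N (b i) := by
    intro i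
    exact (LinearMap.toMatrix e e).symm_apply_apply _
  have hbb : ∀ i j, Dl (b i * b j) = act k N (b i) ∘ₗ Dl (b j) + Dl (b i) ∘ₗ act k N (b j) := by
    intro i j
    have h1 := congrFun (congrFun hδ i) j
    simp only [dm, LinearMap.coe_mk, AddHom.coe_mk, Pi.zero_apply] at h1
    have h2 : ∑ l, sc b i j l • δ l = rho b e i * δ j + δ i * rho b e j := by
      have h3 := sub_eq_zero.1 (show rho b e i * δ j + δ i * rho b e j -
        ∑ l, sc b i j l • δ l = 0 by rw [← h1]; abel)
      exact h3.symm
    rw [mul_eq b i j, map_sum]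
    have h3 : ∑ l, Dl (sc b i j l • b l) = T (∑ l, sc b i j l • δ l) := by
      rw [map_sum]
      refine Finset.sum_congr rfl fun l _ => ?_
      rw [map_smul, map_smul, hDb]
    rw [h3, h2, map_add, hTm, hTm, hTr, hTr, hDb, hDb]
  have hmul : ∀ r s : R, Dl (r * s) = act k N r ∘ₗ Dl s + Dl r ∘ₗ act k N s := by
    intro r s
    let L : R →ₗ[k] (N →ₗ[k] N) := Dl ∘ₗ LinearMap.mulLeft k r
    have hs : ∀ r' : R, (∀ j, Dl (r' * b j) = act k N r' ∘ₗ Dl (b j) + Dl r' ∘ₗ act k N (b j)) →
        ∀ s', Dl (r' * s') = act k N r' ∘ₗ Dl s' + Dl r' ∘ₗ act k N s' := by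
      intro r' h s'
      rw [← b.sum_repr s', Finset.mul_sum, map_sum, map_sum, act_sum b]
      ext x
      simp only [LinearMap.sum_apply, LinearMap.add_apply, LinearMap.comp_apply, map_sum,
        LinearMap.smul_apply, map_smul]
      rw [← Finset.sum_add_distrib]
      refine Finset.sum_congr rfl fun l _ => ?_
      rw [Algebra.mul_smul_comm, map_smul, h l]
      simp only [LinearMap.smul_apply, LinearMap.add_apply, LinearMap.comp_apply, smul_add]
    have hr : ∀ j, Dl (r * b j) = act k N r ∘ₗ Dl (b j) + Dl r ∘ₗ act k N (b j) := by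
      intro j
      rw [← b.sum_repr r, Finset.sum_mul, map_sum, map_sum, act_sum b]
      ext x
      simp only [LinearMap.sum_apply, LinearMap.add_apply, LinearMap.comp_apply,
        LinearMap.smul_apply]
      rw [← Finset.sum_add_distrib]
      refine Finset.sum_congr rfl fun l _ => ?_
      rw [Algebra.smul_mul_assoc, map_smul, hbb l j, map_smul]
      simp only [LinearMap.smul_apply, LinearMap.add_apply, LinearMap.comp_apply, smul_add]
    exact hs r hr s
  have hone : Dl 1 = 0 := by
    have h1 := hmul 1 1
    rw [mul_one] at h1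
    have h2 : act k N (1 : R) = LinearMap.id := by
      ext x
      exact one_smul R x
    rw [h2, LinearMap.id_comp, LinearMap.comp_id] at h1
    simpa using h1
  obtain ⟨φ, hφa, hφ⟩ := exists_coboundary (R := R) (fun r x => Dl r x)
    (fun r s x => by simp) (fun r x y => map_add _ _ _)
    (fun r s x => by
      have := LinearMap.congr_fun (hmul r s) x
      exact this)
    (fun x => by
      show Dl 1 x = 0
      rw [hone]; rfl) hE
  have hφk : ∀ (t : k) (x : N), φ (t • x) = t • φ x := by
    intro t x
    have h1 := hφ (algebraMap k R t) x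
    have h2 : Dl (algebraMap k R t) = 0 := by
      rw [Algebra.algebraMap_eq_smul_one, map_smul, hone, smul_zero]
    rw [h2, algebraMap_smul, algebraMap_smul, LinearMap.zero_apply] at h1
    exact (sub_eq_zero.1 h1.symm)
  let φl : N →ₗ[k] N :=
    { toFun := φ
      map_add' := hφa
      map_smul' := hφk }
  refine ⟨-(LinearMap.toMatrix e e φl), ?_⟩
  funext i
  apply (LinearMap.toMatrix e e).symm.injective
  have h1 : (LinearMap.toMatrix e e).symm (δ i) = Dl (b i) := (hDb i).symm
  rw [h1]
  have h2 : (LinearMap.toMatrix e e).symm (Dm (rho b e) (rho b e)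
      (-(LinearMap.toMatrix e e φl)) i) = φl ∘ₗ act k N (b i) - act k N (b i) ∘ₗ φl := by
    simp only [Dm, LinearMap.coe_mk, AddHom.coe_mk]
    rw [mul_neg, neg_mul, sub_neg_eq_add, neg_add_eq_sub]
    simp only [rho]
    rw [← LinearMap.toMatrix_comp e e e, ← LinearMap.toMatrix_comp e e e, ← map_sub]
    exact (LinearMap.toMatrix e e).symm_apply_apply _
  rw [h2]
  ext x
  exact (hφ (b i) x).symm

end rep

end P195
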