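import Vale.Agent.P195.RigidPart

/-!
# P195: syzygies of modules without self-extensions
-/

namespace P195

open CategoryTheory Abelian

universe u

section general

variable {R : Type u} [Ring R]

/-- the short complex attached to a short exact sequence of modules -/
def seq {A B C : Type u} [AddCommGroup A] [Module R A] [AddCommGroup B] [Module R B]
    [AddCommGroup C] [Module R C] (f : A →ₗ[R] B) (g : B →ₗ[R] C) (hex : Function.Exact f g) :
    ShortComplex (ModuleCat.{u} R) :=
  ShortComplex.mk (ModuleCat.ofHom f) (ModuleCat.ofHom g) (by ext x; exact (hex (f x)).2 ⟨x, rfl⟩)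

lemma seq_exact {A B C : Type u} [AddCommGroup A] [Module R A] [AddCommGroup B] [Module R B]
    [AddCommGroup C] [Module R C] (f : A →ₗ[R] B) (g : B →ₗ[R] C) (hf : Function.Injective f)
    (hg : Function.Surjective g) (hex : Function.Exact f g) : (seq f g hex).ShortExact :=
  { exact := (ShortComplex.moduleCat_exact_iff _).2 fun z hz => (hex z).1 hz
    mono_f := (ModuleCat.mono_iff_injective _).2 hf
    epi_g := (ModuleCat.epi_iff_surjective _).2 hg }

/-- a split quotient of a projective module is projective -/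
lemma projective_of_ext {A B C : Type u} [AddCommGroup A] [Module R A] [AddCommGroup B]
    [Module R B] [AddCommGroup C] [Module R C] [Module.Projective R B] (f : A →ₗ[R] B)
    (g : B →ₗ[R] C) (hf : Function.Injective f)
    (hg : Function.Surjective g) (hex : Function.Exact f g)
    (h : Subsingleton (Ext.{u} (ModuleCat.of R C) (ModuleCat.of R A) 1)) :
    Module.Projective R C := by
  obtain ⟨s, hs⟩ := exists_section (seq_exact f g hf hg hex) h
  let s' : C →ₗ[R] B := s.hom
  have h2 : g ∘ₗ s' = LinearMap.id := congrArg ModuleCat.Hom.hom hs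
  exact Module.Projective.of_split s' g h2

variable {N P : ℕ → Type u} [∀ n, AddCommGroup (N n)] [∀ n, Module R (N n)]
  [∀ n, AddCommGroup (P n)] [∀ n, Module R (P n)] [∀ n, Module.Projective R (P n)]
  (f : ∀ n, N (n + 1) →ₗ[R] P n) (g : ∀ n, P n →ₗ[R] N n)
  (hf : ∀ n, Function.Injective (f n)) (hg : ∀ n, Function.Surjective (g n))
  (hex : ∀ n, Function.Exact (f n) (g n))

include hf hg hex in
/-- dimension shifting in the first variable -/
lemma shift_iter (X : ModuleCat.{u} R) (m : ℕ) : ∀ n t : ℕ, 1 ≤ t →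
    Subsingleton (Ext.{u} (ModuleCat.of R (N n)) X (m + t)) →
    Subsingleton (Ext.{u} (ModuleCat.of R (N (n + m))) X t) := by
  induction m with
  | zero =>
    intro n t _ h
    rw [Nat.zero_add] at h
    exact h
  | succ m ih =>
    intro n t ht h
    have h1 : Subsingleton (Ext.{u} (ModuleCat.of R (N (n + m))) X (t + 1)) := by
      refine ih n (t + 1) (by omega) ?_
      have h2 : m + (t + 1) = m + 1 + t := by omega
      rw [h2]
      exact h
    have h3 : Projective (seq (f (n + m)) (g (n + m)) (hex (n + m))).X₂ :=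
      (IsProjective.iff_projective (R := R) (P (n + m))).1 inferInstance
    exact shift_left (seq_exact (f (n + m)) (g (n + m)) (hf _) (hg _) (hex _)) X ht h1

variable [∀ n, Module.Finite R (P n)]

include hf hg hex in
/-- the condition (AR) passes to syzygies -/
lemma ar_step (n : ℕ)
    (h1 : ∀ i : ℕ, 1 ≤ i → Subsingleton (Ext.{u} (ModuleCat.of R (N n)) (ModuleCat.of R (N n)) i))
    (h2 : ∀ i : ℕ, 1 ≤ i → Subsingleton (Ext.{u} (ModuleCat.of R (N n)) (ModuleCat.of R R) i)) :
    (∀ i : ℕ, 1 ≤ i →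
      Subsingleton (Ext.{u} (ModuleCat.of R (N (n + 1))) (ModuleCat.of R (N (n + 1))) i)) ∧
    (∀ i : ℕ, 1 ≤ i →
      Subsingleton (Ext.{u} (ModuleCat.of R (N (n + 1))) (ModuleCat.of R R) i)) := by
  constructor
  · intro i hi
    have h3 : Subsingleton (Ext.{u} (ModuleCat.of R (N n)) (ModuleCat.of R (P n)) (i + 1)) :=
      extZero_proj (h2 (i + 1) (by omega))
    have h4 : Subsingleton (Ext.{u} (ModuleCat.of R (N n)) (ModuleCat.of R (N (n + 1)))
        (i + 1)) := shift_right (seq_exact (f n) (g n) (hf _) (hg _) (hex _)) _ h3 (h1 i hi)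
    rw [add_comm i 1] at h4
    exact shift_iter f g hf hg hex _ 1 n i hi h4
  · intro i hi
    have h4 := h2 (1 + i) (by omega)
    exact shift_iter f g hf hg hex _ 1 n i hi h4

include hf hg hex in
lemma ar_all
    (h1 : ∀ i : ℕ, 1 ≤ i → Subsingleton (Ext.{u} (ModuleCat.of R (N 0)) (ModuleCat.of R (N 0)) i))
    (h2 : ∀ i : ℕ, 1 ≤ i → Subsingleton (Ext.{u} (ModuleCat.of R (N 0)) (ModuleCat.of R R) i)) :
    ∀ n : ℕ, (∀ i : ℕ, 1 ≤ i →
      Subsingleton (Ext.{u} (ModuleCat.of R (N n)) (ModuleCat.of R (N n)) i)) ∧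
    (∀ i : ℕ, 1 ≤ i → Subsingleton (Ext.{u} (ModuleCat.of R (N n)) (ModuleCat.of R R) i)) := by
  intro n
  induction n with
  | zero => exact ⟨h1, h2⟩
  | succ n ih => exact ar_step f g hf hg hex n ih.1 ih.2

omit [∀ n, Module.Finite R (P n)] in
include hf hg hex in
/-- projectivity descends along syzygies -/
lemma descend
    (h2 : ∀ n i : ℕ, 1 ≤ i → Subsingleton (Ext.{u} (ModuleCat.of R (N n)) (ModuleCat.of R R) i))
    (n : ℕ) (hfin : ∀ n, Module.Finite R (N n)) (h : Module.Projective R (N n)) :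
    Module.Projective R (N 0) := by
  induction n with
  | zero => exact h
  | succ n ih =>
    refine ih ?_
    have := hfin (n + 1)
    have h3 : Subsingleton (Ext.{u} (ModuleCat.of R (N n)) (ModuleCat.of R (N (n + 1))) 1) :=
      extZero_proj (h2 n 1 le_rfl)
    exact projective_of_ext (f n) (g n) (hf n) (hg n) (hex n) h3

include hf hg hex in
/-- two isomorphic syzygies force projectivity -/
lemma proj_of_iso
    (h1 : ∀ i : ℕ, 1 ≤ i → Subsingleton (Ext.{u} (ModuleCat.of R (N 0)) (ModuleCat.of R (N 0)) i))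
    (h2 : ∀ i : ℕ, 1 ≤ i → Subsingleton (Ext.{u} (ModuleCat.of R (N 0)) (ModuleCat.of R R) i))
    (hfin : ∀ n, Module.Finite R (N n))
    {a c : ℕ} (hac : a < c) (e : N a ≃ₗ[R] N c) : Module.Projective R (N 0) := by
  have hall := ar_all f g hf hg hex h1 h2
  obtain ⟨m, rfl⟩ : ∃ m, c = a + m + 1 := ⟨c - a - 1, by omega⟩
  have h3 : Subsingleton (Ext.{u} (ModuleCat.of R (N a)) (ModuleCat.of R (N (a + m + 1)))
      (m + 1)) := by
    refine subsingleton_of_forall_eq 0 fun x => ?_
    let i1 : ModuleCat.of R (N (a + m + 1)) ⟶ ModuleCat.of R (N a) :=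
      ModuleCat.ofHom e.symm.toLinearMap
    let i2 : ModuleCat.of R (N a) ⟶ ModuleCat.of R (N (a + m + 1)) :=
      ModuleCat.ofHom e.toLinearMap
    have hid : 𝟙 (ModuleCat.of R (N (a + m + 1))) = i1 ≫ i2 := by
      ext x
      exact (e.apply_symm_apply x).symm
    have h5 := (hall a).1 (m + 1) (by omega)
    rw [← Ext.comp_mk₀_id x, hid, ← Ext.mk₀_comp_mk₀, ← Ext.comp_assoc_of_second_deg_zero,
      Subsingleton.elim (x.comp (Ext.mk₀ i1) (add_zero (m + 1))) 0, Ext.zero_comp]
  have h4 := shift_iter f g hf hg hex (ModuleCat.of R (N (a + m + 1))) m a 1 le_rfl h3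
  have h5 : Module.Projective R (N (a + m)) :=
    projective_of_ext (f (a + m)) (g (a + m)) (hf _) (hg _) (hex _) h4
  exact descend f g hf hg hex (fun n => (hall n).2) (a + m) hfin h5

end general

end P195
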